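import Vale.Agent.P146.R2.H729.TrSpec
import Vale.Agent.P146.R3.H501.P0

/-!
# P146, lower tail, row I: the free energy and the pressure
-/

open MeasureTheory ProbabilityTheory Matrix Filter Topology

namespace Vale.Agent.P146.R2.H441

open Vale.Agent.P166 Vale.Agent.P146
open Vale.Agent.P146.R2.H432 (WW)
open Vale.Agent.P146.R3.H432 (sy)
open Vale.Agent.P146.Sk (Wm Ix)

/-- off the diagonal `W` is the symmetrized disorder divided by `√N` -/
theorem wm_off {N : ℕ} (z : Ix N → ℝ) (i j : Fin N) (h : i ≠ j) :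
    Wm N z i j = WW (sy N z) i j := by
  have h2 : √(2 * (N : ℝ)) = √2 * √(N : ℝ) := Real.sqrt_mul (by norm_num) _
  show (z (i, j) + z (j, i)) / √(2 * (N : ℝ)) =
    Vale.Agent.P150.gsym (sy N z) i j / Real.sqrt N
  unfold Vale.Agent.P150.gsym
  rcases lt_or_gt_of_ne h with h | h
  · rw [dif_pos h, h2]
    simp only [sy]
    rw [div_div]
  · rw [dif_neg (not_lt.2 (le_of_lt h)), dif_pos h, h2]
    simp only [sy]
    rw [div_div, add_comm]

/-- **Row I.** -/
theorem rowI : Vale.Agent.P146.R2.H729.Tr.StI := by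
  intro β N z hN
  have hN0 : 0 < N := hN
  have hR : (N : ℝ) ≠ 0 := by positivity
  have h := Vale.Agent.P146.R3.H501.pr_sk hN0 β (sy N z) (Wm N z) (wm_off z)
  have htr : (Wm N z).trace = ∑ i, Wm N z i i := rfl
  rw [h, htr]
  field_simp
  ring

end Vale.Agent.P146.R2.H441
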